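import Mathlib

namespace Vale.Agent.Results.P062.StripFive

/-- Cells of the square grid, indexed by their lower-left corner. -/
abbrev Cell : Type := ℤ × ℤ

/-- The Snaky hexomino. -/
def snaky : Finset Cell := {(0, 0), (1, 0), (2, 0), (3, 0), (3, 1), (4, 1)}

/-- The eight signed permutation maps of the grid: optionally swap the two coordinates
(first flag), then optionally negate the first coordinate (second flag) and the second
coordinate (third flag). -/
def sym (e : Bool × Bool × Bool) (p : Cell) : Cell :=
  ((if e.2.1 then -(if e.1 then p.2 else p.1) else (if e.1 then p.2 else p.1)),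
   (if e.2.2 then -(if e.1 then p.1 else p.2) else (if e.1 then p.1 else p.2)))

/-- Allowed copies of Snaky: the sets `t + R(S)`. -/
def IsCopy (C : Finset Cell) : Prop :=
  ∃ (e : Bool × Bool × Bool) (t : Cell), C = snaky.image (fun p => t + sym e p)

/-- Breaker's move number `k` (counting from `0`) when Breaker follows the strategy `σ`,
a function of the chronological list of Maker's moves so far, against Maker's moves `m`. -/
def breakerMove (σ : List Cell → Cell) (m : ℕ → Cell) (k : ℕ) : Cell :=
  σ ((List.range (k + 1)).map m)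

/-- Maker's moves `m 0, ..., m (K - 1)` are legal on the board `B` against `σ`: each is a
cell of the board that neither player has claimed before. -/
def MakerLegal (B : Set Cell) (σ : List Cell → Cell) (m : ℕ → Cell) (K : ℕ) : Prop :=
  ∀ k < K, m k ∈ B ∧ (∀ i < k, m k ≠ m i) ∧ (∀ i < k, m k ≠ breakerMove σ m i)

/-- Breaker has a winning strategy on the board `B` (Maker moves first, one cell per turn):
there is a strategy `σ` such that, whenever Maker has played legally, Breaker's answer is a
legal move (an unclaimed cell of the board) and Maker owns no allowed copy of Snaky. -/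
def BreakerWins (B : Set Cell) : Prop :=
  ∃ σ : List Cell → Cell, ∀ (m : ℕ → Cell) (K : ℕ), MakerLegal B σ m (K + 1) →
    (breakerMove σ m K ∈ B ∧ (∀ i ≤ K, breakerMove σ m K ≠ m i) ∧
      (∀ i < K, breakerMove σ m K ≠ breakerMove σ m i)) ∧
    ¬ ∃ C : Finset Cell, IsCopy C ∧ ∀ c ∈ C, ∃ i ≤ K, m i = c

/-- The infinite strip of height five. -/
def strip : Set Cell := {p | 0 ≤ p.2 ∧ p.2 < 5}

/-! ### The pairing -/

/-- The pairing on the strip (period three in the first coordinate). -/
def mate (p : Cell) : Cell :=
  if p.1 % 3 = 0 then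
    (if p.2 = 0 then (p.1, 1) else if p.2 = 1 then (p.1, 0) else
      if p.2 = 3 then (p.1, 4) else if p.2 = 4 then (p.1, 3) else p)
  else if p.1 % 3 = 1 then
    (if p.2 = 0 ∨ p.2 = 4 then (p.1 - 2, p.2) else (p.1 + 1, p.2))
  else
    (if p.2 = 0 ∨ p.2 = 4 then (p.1 + 2, p.2) else (p.1 - 1, p.2))

theorem mate_mate (p : Cell) : mate (mate p) = p := by
  obtain ⟨x, y⟩ := p
  have h3 : x % 3 = 0 ∨ x % 3 = 1 ∨ x % 3 = 2 := by omega
  rcases h3 with h | h | h
  · by_cases h0 : y = 0
    · subst h0; simp [mate, h]
    by_cases h1 : y = 1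
    · subst h1; simp [mate, h]
    by_cases h3 : y = 3
    · subst h3; simp [mate, h]
    by_cases h4 : y = 4
    · subst h4; simp [mate, h]
    simp [mate, h, h0, h1, h3, h4]
  · have h' : (x + 1) % 3 = 2 := by omega
    have h'' : (x - 2) % 3 = 2 := by omega
    by_cases hy : y = 0 ∨ y = 4
    · simp [mate, h, hy, h'']
    · simp [mate, h, hy, h']
  · have h' : (x - 1) % 3 = 1 := by omega
    have h'' : (x + 2) % 3 = 1 := by omega
    by_cases hy : y = 0 ∨ y = 4
    · simp [mate, h, hy, h'']
    · simp [mate, h, hy, h']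

theorem mate_mem_strip {p : Cell} (hp : p ∈ strip) : mate p ∈ strip := by
  obtain ⟨x, y⟩ := p
  simp only [strip, Set.mem_ofPred_eq] at hp ⊢
  unfold mate
  split_ifs <;> simp_all

theorem mate_shift (x y q : ℤ) :
    mate (x + 3 * q, y) = ((mate (x, y)).1 + 3 * q, (mate (x, y)).2) := by
  have h : (x + 3 * q) % 3 = x % 3 := by omega
  unfold mate
  simp only [h]
  split_ifs <;> simp <;> ring

/-- Snaky as a list. -/
def snakyL : List Cell := [(0, 0), (1, 0), (2, 0), (3, 0), (3, 1), (4, 1)]

/-- The eight symmetries as a list. -/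
def allSyms : List (Bool × Bool × Bool) :=
  [(false, false, false), (false, false, true), (false, true, false), (false, true, true),
   (true, false, false), (true, false, true), (true, true, false), (true, true, true)]

set_option maxRecDepth 100000 in
theorem fin_check : ∀ e ∈ allSyms, ∀ r ∈ ([0, 1, 2] : List ℤ), ∀ ty ∈ ([0, 1, 2, 3, 4] : List ℤ),
    (∀ p ∈ snakyL, 0 ≤ ty + (sym e p).2 ∧ ty + (sym e p).2 < 5) →
    ∃ p ∈ snakyL, ∃ q ∈ snakyL,
      mate (r + (sym e p).1, ty + (sym e p).2) = (r + (sym e q).1, ty + (sym e q).2) ∧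
      (r + (sym e q).1, ty + (sym e q).2) ≠ (r + (sym e p).1, ty + (sym e p).2) := by
  decide

theorem sym_zero (e : Bool × Bool × Bool) : sym e (0, 0) = (0, 0) := by
  obtain ⟨a, b, c⟩ := e
  cases a <;> cases b <;> cases c <;> simp [sym]

theorem mem_allSyms (e : Bool × Bool × Bool) : e ∈ allSyms := by
  obtain ⟨a, b, c⟩ := e
  cases a <;> cases b <;> cases c <;> simp [allSyms]

theorem mem_snaky_iff (p : Cell) : p ∈ snaky ↔ p ∈ snakyL := by
  simp [snaky, snakyL]

/-- Every allowed copy inside the strip contains a cell together with its (different) mate. -/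
theorem copy_has_pair {C : Finset Cell} (hC : IsCopy C) (hCs : ∀ c ∈ C, c ∈ strip) :
    ∃ c ∈ C, mate c ∈ C ∧ mate c ≠ c := by
  obtain ⟨e, t, rfl⟩ := hC
  obtain ⟨tx, ty⟩ := t
  have hmem : ∀ p ∈ snaky, ((tx, ty) : Cell) + sym e p ∈ Finset.image (fun p => ((tx, ty) : Cell) + sym e p) snaky :=
    fun p hp => Finset.mem_image_of_mem _ hp
  have hty : 0 ≤ ty ∧ ty < 5 := by
    have h0 := hCs _ (hmem (0, 0) (by simp [snaky]))
    rw [sym_zero] at h0
    simpa [strip] using h0
  have hr : tx % 3 = 0 ∨ tx % 3 = 1 ∨ tx % 3 = 2 := by omega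
  have hr' : tx % 3 ∈ ([0, 1, 2] : List ℤ) := by
    rcases hr with h | h | h <;> simp [h]
  have hty' : ty ∈ ([0, 1, 2, 3, 4] : List ℤ) := by
    have : ty = 0 ∨ ty = 1 ∨ ty = 2 ∨ ty = 3 ∨ ty = 4 := by omega
    rcases this with h | h | h | h | h <;> simp [h]
  have hin : ∀ p ∈ snakyL, 0 ≤ ty + (sym e p).2 ∧ ty + (sym e p).2 < 5 := by
    intro p hp
    have h0 := hCs _ (hmem p ((mem_snaky_iff p).mpr hp))
    simpa [strip] using h0
  obtain ⟨p, hp, q, hq, hpq, hne⟩ := fin_check e (mem_allSyms e) _ hr' ty hty' hin
  have htx : tx = tx % 3 + 3 * (tx / 3) := by omega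
  refine ⟨(tx, ty) + sym e p, hmem p ((mem_snaky_iff p).mpr hp), ?_, ?_⟩
  · have hm : mate ((tx, ty) + sym e p) = (tx, ty) + sym e q := by
      have h1 : ((tx, ty) : Cell) + sym e p
          = (tx % 3 + (sym e p).1 + 3 * (tx / 3), ty + (sym e p).2) := by
        ext
        · simp only [Prod.fst_add]; omega
        · simp
      rw [h1, mate_shift, hpq]
      ext
      · simp only [Prod.fst_add]; omega
      · simp
    rw [hm]
    exact hmem q ((mem_snaky_iff q).mpr hq)
  · have hm : mate ((tx, ty) + sym e p) = (tx, ty) + sym e q := by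
      have h1 : ((tx, ty) : Cell) + sym e p
          = (tx % 3 + (sym e p).1 + 3 * (tx / 3), ty + (sym e p).2) := by
        ext
        · simp only [Prod.fst_add]; omega
        · simp
      rw [h1, mate_shift, hpq]
      ext
      · simp only [Prod.fst_add]; omega
      · simp
    rw [hm]
    intro heq
    apply hne
    have e1 := congrArg Prod.fst heq
    have e2 := congrArg Prod.snd heq
    simp only [Prod.fst_add, Prod.snd_add] at e1 e2
    ext
    · simp only; omega
    · simp only; omega

/-! ### The strategy -/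

/-- A cell of the strip outside a given finite set. -/
def fresh (F : Finset Cell) : Cell := (((1 + F.sup (fun p => p.1.natAbs) : ℕ) : ℤ), 2)

theorem fresh_notMem (F : Finset Cell) : fresh F ∉ F := by
  intro h
  have h1 : (fresh F).1.natAbs ≤ F.sup (fun p => p.1.natAbs) :=
    Finset.le_sup (f := fun p : Cell => p.1.natAbs) h
  simp only [fresh, Int.natAbs_natCast] at h1
  omega

theorem fresh_mem_strip (F : Finset Cell) : fresh F ∈ strip := by
  simp [fresh, strip]

/-- Breaker's answer to Maker's move `c` in the position `s = (Maker's cells, Breaker's cells)`. -/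
def reply (s : Finset Cell × Finset Cell) (c : Cell) : Cell :=
  if mate c ≠ c ∧ mate c ∉ s.1 ∧ mate c ∉ s.2 then mate c else fresh (insert c (s.1 ∪ s.2))

/-- One round: Maker claims `c`, Breaker answers. -/
def step (s : Finset Cell × Finset Cell) (c : Cell) : Finset Cell × Finset Cell :=
  (insert c s.1, insert (reply s c) s.2)

/-- The pairing strategy as a function of the chronological list of Maker's moves. -/
def strat (l : List Cell) : Cell :=
  match l.reverse with
  | [] => (0, 2)
  | c :: r => reply (r.reverse.foldl step (∅, ∅)) c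

/-- The position after `k` rounds. -/
def pos (m : ℕ → Cell) (k : ℕ) : Finset Cell × Finset Cell :=
  ((List.range k).map m).foldl step (∅, ∅)

theorem pos_succ (m : ℕ → Cell) (k : ℕ) : pos m (k + 1) = step (pos m k) (m k) := by
  simp [pos, List.range_succ, List.foldl_append]

theorem breakerMove_eq (m : ℕ → Cell) (k : ℕ) :
    breakerMove strat m k = reply (pos m k) (m k) := by
  simp [breakerMove, strat, pos, List.range_succ]

theorem pos_fst (m : ℕ → Cell) (k : ℕ) : (pos m k).1 = (Finset.range k).image m := by
  induction k with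
  | zero => simp [pos]
  | succ k ih =>
    rw [pos_succ, step, Finset.range_add_one, Finset.image_insert, ih]

theorem pos_snd (m : ℕ → Cell) (k : ℕ) :
    (pos m k).2 = (Finset.range k).image (breakerMove strat m) := by
  induction k with
  | zero => simp [pos]
  | succ k ih =>
    rw [pos_succ, step, Finset.range_add_one, Finset.image_insert, ih, breakerMove_eq]

theorem reply_notMem (s : Finset Cell × Finset Cell) (c : Cell) :
    reply s c ≠ c ∧ reply s c ∉ s.1 ∧ reply s c ∉ s.2 := by
  unfold reply
  split_ifs with h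
  · exact h
  · have hf := fresh_notMem (insert c (s.1 ∪ s.2))
    simp only [Finset.mem_insert, Finset.mem_union, not_or] at hf
    exact ⟨hf.1, hf.2.1, hf.2.2⟩

theorem reply_mem_strip (s : Finset Cell × Finset Cell) {c : Cell} (hc : c ∈ strip) :
    reply s c ∈ strip := by
  unfold reply
  split_ifs with h
  · exact mate_mem_strip hc
  · exact fresh_mem_strip _

/-- The invariant of the pairing strategy. -/
def Inv (s : Finset Cell × Finset Cell) : Prop :=
  (∀ c ∈ s.1, c ∉ s.2) ∧ ∀ c ∈ s.1, mate c ≠ c → mate c ∈ s.2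

theorem inv_step {s : Finset Cell × Finset Cell} (hs : Inv s) {c : Cell}
    (hc1 : c ∉ s.1) (hc2 : c ∉ s.2) : Inv (step s c) := by
  obtain ⟨hr0, hr1, hr2⟩ := reply_notMem s c
  refine ⟨?_, ?_⟩
  · intro d hd hd2
    simp only [step, Finset.mem_insert] at hd hd2
    rcases hd with rfl | hd
    · rcases hd2 with h | h
      · exact hr0 h.symm
      · exact hc2 h
    · rcases hd2 with h | h
      · exact hr1 (h ▸ hd)
      · exact hs.1 d hd h
  · intro d hd hne
    simp only [step, Finset.mem_insert] at hd ⊢
    rcases hd with rfl | hd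
    · by_cases hcond : mate d ≠ d ∧ mate d ∉ s.1 ∧ mate d ∉ s.2
      · left
        simp [reply, hcond]
      · right
        by_contra hnot
        have hin1 : mate d ∈ s.1 := by
          by_contra h1
          exact hcond ⟨hne, h1, hnot⟩
        have h2 := hs.2 (mate d) hin1 (by rw [mate_mate]; exact fun h => hne h.symm)
        rw [mate_mate] at h2
        exact hc2 h2
    · right
      exact hs.2 d hd hne

theorem inv_pos {m : ℕ → Cell} {B : Set Cell} {K : ℕ} (hleg : MakerLegal B strat m K) :
    ∀ k ≤ K, Inv (pos m k) := by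
  intro k
  induction k with
  | zero => intro _; simp [pos, Inv]
  | succ k ih =>
    intro hk
    rw [pos_succ]
    obtain ⟨-, h1, h2⟩ := hleg k (by omega)
    apply inv_step (ih (by omega))
    · rw [pos_fst]
      simp only [Finset.mem_image, Finset.mem_range, not_exists, not_and]
      intro i hi heq
      exact h1 i hi heq.symm
    · rw [pos_snd]
      simp only [Finset.mem_image, Finset.mem_range, not_exists, not_and]
      intro i hi heq
      exact h2 i hi heq.symm

/-- **Breaker wins the Snaky achievement game on the infinite strip of height five.** -/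
theorem result : BreakerWins {p : Cell | 0 ≤ p.2 ∧ p.2 < 5} := by
  refine ⟨strat, fun m K hleg => ⟨?_, ?_⟩⟩
  · obtain ⟨hB, -, -⟩ := hleg K (by omega)
    obtain ⟨hr0, hr1, hr2⟩ := reply_notMem (pos m K) (m K)
    rw [breakerMove_eq]
    refine ⟨reply_mem_strip _ hB, ?_, ?_⟩
    · intro i hi heq
      rcases Nat.lt_or_ge i K with hlt | hge
      · apply hr1
        rw [pos_fst, heq]
        exact Finset.mem_image_of_mem _ (Finset.mem_range.mpr hlt)
      · have : i = K := by omega
        subst this
        exact hr0 heq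
    · intro i hi heq
      apply hr2
      rw [pos_snd, heq]
      exact Finset.mem_image_of_mem _ (Finset.mem_range.mpr hi)
  · rintro ⟨C, hC, hCm⟩
    have hinv := inv_pos hleg (K + 1) le_rfl
    have hCpos : ∀ c ∈ C, c ∈ (pos m (K + 1)).1 := by
      intro c hc
      obtain ⟨i, hi, rfl⟩ := hCm c hc
      rw [pos_fst]
      exact Finset.mem_image_of_mem _ (Finset.mem_range.mpr (by omega))
    have hCs : ∀ c ∈ C, c ∈ strip := by
      intro c hc
      obtain ⟨i, hi, rfl⟩ := hCm c hc
      exact (hleg i (by omega)).1
    obtain ⟨c, hc, hmc, hne⟩ := copy_has_pair hC hCs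
    exact hinv.1 (mate c) (hCpos _ hmc) (hinv.2 c (hCpos _ hc) hne)

end Vale.Agent.Results.P062.StripFive
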