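import Mathlib
import Vale.Agent.Results.P062.StripFive

/-!
# P062: Breaker wins the Snaky game on the strip of height five, stated without definitions

The same theorem as `StripFive`, with every notion written out in the statement.

* Cells are pairs of integers; the board is the strip of the cells `(x, y)` with `0 ≤ y < 5`.
* `m 0, m 1, ...` are the moves of Maker, who moves first.  A strategy of Breaker is a function
  `σ` of the chronological list of the moves of Maker so far; the move number `i` of Breaker is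
  `b i = σ [m 0, ..., m i]`.
* Hypothesis: the moves `m 0, ..., m K` of Maker are legal (cells of the board, different from
  all earlier moves of both players).
* Conclusion: the move `b K` of Breaker is legal, and the cells `m 0, ..., m K` of Maker contain
  no allowed copy `t + R(S)` of Snaky, where `R` is a signed permutation matrix: either
  `R (x, y) = (s₁ x, s₂ y)` or `R (x, y) = (s₁ y, s₂ x)` with signs `s₁, s₂`.
-/

namespace Vale.Agent.Results.P062.StripFivePlain

theorem result :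
    ∃ σ : List (ℤ × ℤ) → ℤ × ℤ, ∀ (m : ℕ → ℤ × ℤ) (K : ℕ),
      let b : ℕ → ℤ × ℤ := fun i => σ ((List.range (i + 1)).map m)
      (∀ k ≤ K, (0 ≤ (m k).2 ∧ (m k).2 < 5) ∧ (∀ i < k, m k ≠ m i) ∧ (∀ i < k, m k ≠ b i)) →
        ((0 ≤ (b K).2 ∧ (b K).2 < 5) ∧ (∀ i ≤ K, b K ≠ m i) ∧ (∀ i < K, b K ≠ b i)) ∧
        ¬ ∃ (t : ℤ × ℤ) (s₁ s₂ : ℤ), (s₁ = 1 ∨ s₁ = -1) ∧ (s₂ = 1 ∨ s₂ = -1) ∧
            ((∀ p ∈ ({(0, 0), (1, 0), (2, 0), (3, 0), (3, 1), (4, 1)} : Finset (ℤ × ℤ)),
                ∃ i ≤ K, m i = (t.1 + s₁ * p.1, t.2 + s₂ * p.2)) ∨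
             (∀ p ∈ ({(0, 0), (1, 0), (2, 0), (3, 0), (3, 1), (4, 1)} : Finset (ℤ × ℤ)),
                ∃ i ≤ K, m i = (t.1 + s₁ * p.2, t.2 + s₂ * p.1))) := by
  obtain ⟨σ, hσ⟩ := Vale.Agent.Results.P062.StripFive.result
  refine ⟨σ, ?_⟩
  intro m K b hleg
  have h := hσ m K (fun k hk => hleg k (Nat.lt_succ_iff.mp hk))
  refine ⟨h.1, ?_⟩
  rintro ⟨t, s₁, s₂, h1, h2, hcopy⟩
  apply h.2
  -- the flags of the signed permutation map
  have key : ∀ (sw : Bool),
      (∀ p ∈ ({(0, 0), (1, 0), (2, 0), (3, 0), (3, 1), (4, 1)} : Finset (ℤ × ℤ)),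
        ∃ i ≤ K, m i = (t.1 + s₁ * (if sw then p.2 else p.1),
          t.2 + s₂ * (if sw then p.1 else p.2))) →
      ∃ C : Finset Vale.Agent.Results.P062.StripFive.Cell,
        Vale.Agent.Results.P062.StripFive.IsCopy C ∧ ∀ c ∈ C, ∃ i ≤ K, m i = c := by
    intro sw hsw
    refine ⟨Vale.Agent.Results.P062.StripFive.snaky.image
      (fun p => t + Vale.Agent.Results.P062.StripFive.sym
        (sw, decide (s₁ = -1), decide (s₂ = -1)) p), ⟨_, t, rfl⟩, ?_⟩
    intro c hc
    obtain ⟨p, hp, rfl⟩ := Finset.mem_image.mp hc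
    obtain ⟨i, hi, hmi⟩ := hsw p hp
    refine ⟨i, hi, ?_⟩
    rw [hmi]
    rcases h1 with rfl | rfl <;> rcases h2 with rfl | rfl <;> cases sw <;>
      simp [Vale.Agent.Results.P062.StripFive.sym, Prod.ext_iff]
  rcases hcopy with hc | hc
  · exact key false (by simpa using hc)
  · exact key true (by simpa using hc)

end Vale.Agent.Results.P062.StripFivePlain
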